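import Vale.Agent.P372.Example

open scoped ENNReal
open Vale.Agent.P372

namespace Vale.Agent.Results.P372.NoKey

/-- An entangled state on `ℂ^16 ⊗ ℂ^16` with zero distillable key. -/
theorem result :
    ∃ ρ : Matrix (Fin 16 × Fin 16) (Fin 16 × Fin 16) ℂ,
      IsState ρ ∧ ¬ Separable ρ ∧
      (∃ (dE : ℕ) (ψ : (Fin 16 × Fin 16) × Fin dE → ℂ), IsPurification ψ ρ) ∧
      ∀ (dE : ℕ) (ψ : (Fin 16 × Fin 16) × Fin dE → ℂ), IsPurification ψ ρ →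
        keyRate ψ = 0 ∧
        ∀ (n ℓ : ℕ) (P : Protocol ℓ (16 ^ n) (16 ^ n)) (ε : ℝ), 1 ≤ ℓ →
          HasError P (power ψ n) ε → 2 / 3 ≤ ε := by
  obtain ⟨γ, h1, h2⟩ := exists_state
  refine ⟨st (pairK Kb Kb) γ, h1, h2, st_purif _ _, fun dE ψ hψ => ?_⟩
  have h := error_power Kb_sym Kb_sym γ h1.2 ψ hψ
  exact ⟨keyRate_eq_zero ψ h, h⟩

end Vale.Agent.Results.P372.NoKey
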